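import Vale.Agent.P309.Main

namespace Vale.Agent.Results.P309.Quadratic

open MeasureTheory Vale.Agent.P309

theorem result : ∀ A : ℝ, 0 < A → ∃ c : ℝ, 0 < c ∧ ∀ (d M N T : ℕ) (ε : ℝ), 16 ≤ d →
    (M : ℝ) ≤ A * (d : ℝ) ^ 2 → N ≤ 2 ^ M → 0 < ε → ε ≤ 1 / 10 →
    ∀ (Ω : Type) [MeasurableSpace Ω] (P : Measure Ω) [IsProbabilityMeasure P]
      (L : Learner d N Ω), 2 / 3 ≤ L.success P T ε → c * d * Real.log (1 / ε) ≤ T := by
  intro A hA
  refine ⟨1 / 3000 / (1 + A), by positivity, ?_⟩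
  intro d M N T ε hd hM hN h0 hε Ω _ P _ L h
  have key := lower_bound L hd hN P h0 hε h
  have hd' : (0 : ℝ) < d := by exact_mod_cast (by omega : 0 < d)
  have h1 : (M : ℝ) / (d : ℝ) ^ 2 ≤ A := by rwa [div_le_iff₀ (by positivity)]
  have h2 : (1 + M / (d : ℝ) ^ 2) * T ≤ (1 + A) * T := by gcongr
  rw [div_mul_eq_mul_div, div_mul_eq_mul_div, div_le_iff₀ (by positivity)]
  linarith

end Vale.Agent.Results.P309.Quadratic
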