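import Vale.Agent.P309.Main

namespace Vale.Agent.Results.P309.Tradeoff

open MeasureTheory Vale.Agent.P309

theorem result : ∃ c : ℝ, 0 < c ∧ ∀ (d M N T : ℕ) (ε : ℝ), 16 ≤ d →
    N ≤ 2 ^ M → 0 < ε → ε ≤ 1 / 10 →
    ∀ (Ω : Type) [MeasurableSpace Ω] (P : Measure Ω) [IsProbabilityMeasure P]
      (L : Learner d N Ω), 2 / 3 ≤ L.success P T ε →
      c * d * Real.log (1 / ε) ≤ (1 + M / (d : ℝ) ^ 2) * T :=
  ⟨1 / 3000, by norm_num, fun _ _ _ _ _ hd hN h0 hε _ _ P _ L h => lower_bound L hd hN P h0 hε h⟩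

end Vale.Agent.Results.P309.Tradeoff
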